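import Mathlib

namespace Vale.Agent.P176

universe u

open Submodule

variable {R : Type u} [Ring R]

section basic

variable {X : Type u} [AddCommGroup X] [Module R X]

theorem pow_succ_smul (J : Ideal R) (k : ℕ) (N : Submodule R X) :
    J ^ (k + 1) • N = J ^ k • (J • N) := by
  rw [J.pow_succ, Submodule.mul_smul]

theorem eq_top_of_sup_smul [IsSemiprimaryRing R] (N : Submodule R X)
    (h : N ⊔ Ring.jacobson R • (⊤ : Submodule R X) = ⊤) : N = ⊤ := by
  have key : ∀ Q : Submodule R X, (⊤ : Submodule R X) ≤ N ⊔ Q →
      (⊤ : Submodule R X) ≤ N ⊔ Ring.jacobson R • Q := by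
    intro Q hQ
    rw [← h]
    refine sup_le le_sup_left ?_
    calc Ring.jacobson R • (⊤ : Submodule R X) ≤ Ring.jacobson R • (N ⊔ Q) :=
          Submodule.smul_mono le_rfl hQ
      _ = Ring.jacobson R • N ⊔ Ring.jacobson R • Q := Submodule.smul_sup _ _ _
      _ ≤ N ⊔ Ring.jacobson R • Q := sup_le_sup_right Submodule.smul_le_right _
  have all : ∀ (k : ℕ) (Q : Submodule R X), (⊤ : Submodule R X) ≤ N ⊔ Q →
      (⊤ : Submodule R X) ≤ N ⊔ Ring.jacobson R ^ k • Q := by
    intro k
    induction k with
    | zero =>
      intro Q hQ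
      rwa [Submodule.pow_zero, Ideal.one_eq_top, Submodule.top_smul]
    | succ k ih =>
      intro Q hQ
      rw [pow_succ_smul]
      exact ih _ (key Q hQ)
  obtain ⟨n, hn⟩ := IsSemiprimaryRing.isNilpotent (R := R)
  have h1 := all n ⊤ (by simp)
  rw [hn, Ideal.zero_eq_bot, Submodule.bot_smul, sup_bot_eq] at h1
  exact top_le_iff.mp h1

theorem eq_bot_of_le_smul [IsSemiprimaryRing R] (N : Submodule R X)
    (h : N ≤ Ring.jacobson R • N) : N = ⊥ := by
  have all : ∀ k : ℕ, N ≤ Ring.jacobson R ^ k • N := by
    intro k
    induction k with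
    | zero => rw [Submodule.pow_zero, Ideal.one_eq_top, Submodule.top_smul]
    | succ k ih =>
      rw [pow_succ_smul]
      exact ih.trans (Submodule.smul_mono le_rfl h)
  obtain ⟨n, hn⟩ := IsSemiprimaryRing.isNilpotent (R := R)
  have h1 := all n
  rw [hn, Ideal.zero_eq_bot, Submodule.bot_smul] at h1
  exact le_bot_iff.mp h1

theorem semisimple_of_jac_smul [IsSemiprimaryRing R]
    (h : ∀ r ∈ Ring.jacobson R, ∀ x : X, r • x = 0) : IsSemisimpleModule R X := by
  have hT : Module.IsTorsionBySet R X (Ring.jacobson R : Set R) := by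
    intro x a
    exact h a.1 a.2 x
  let _ := hT.module
  exact (hT.semilinearMap.isSemisimpleModule_iff_of_bijective Function.bijective_id).2
    inferInstance

end basic

def endQuot (F : Type u) [AddCommGroup F] [Module R F] :
    Module.End R F →+* Module.End R (F ⧸ (Ring.jacobson R • (⊤ : Submodule R F))) where
  toFun g := (Ring.jacobson R • (⊤ : Submodule R F)).mapQ _ g (by
    rw [Submodule.smul_le]
    intro r hr n _
    rw [Submodule.mem_comap, map_smul]
    exact Submodule.smul_mem_smul hr trivial)
  map_one' := by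
    apply Submodule.linearMap_qext
    ext x
    simp
  map_mul' g h := by
    apply Submodule.linearMap_qext
    ext x
    simp
  map_zero' := by
    apply Submodule.linearMap_qext
    ext x
    simp
  map_add' g h := by
    apply Submodule.linearMap_qext
    ext x
    simp

theorem endQuot_mk (F : Type u) [AddCommGroup F] [Module R F] (g : Module.End R F) (x : F) :
    endQuot F g (Submodule.Quotient.mk x) = Submodule.Quotient.mk (g x) := rfl

theorem exists_cover_aux [IsSemiprimaryRing R]
    (F X : Type u) [AddCommGroup F] [Module R F] [Module.Projective R F]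
    [AddCommGroup X] [Module R X] (φ : F →ₗ[R] X) (hφ : Function.Surjective φ) :
    ∃ (P : Submodule R F) (π : P →ₗ[R] X), Module.Projective R P ∧
      Function.Surjective π ∧ LinearMap.ker π ≤ Ring.jacobson R • (⊤ : Submodule R P) := by
  set JF : Submodule R F := Ring.jacobson R • ⊤ with hJF
  set JX : Submodule R X := Ring.jacobson R • ⊤ with hJX
  have hle : JF ≤ JX.comap φ := by
    rw [hJF, Submodule.smul_le]
    intro r hr m _
    rw [Submodule.mem_comap, map_smul]
    exact Submodule.smul_mem_smul hr trivial
  let φb : (F ⧸ JF) →ₗ[R] (X ⧸ JX) := JF.mapQ JX φ hle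
  have : IsSemisimpleModule R (F ⧸ JF) := by
    apply semisimple_of_jac_smul
    intro r hr x
    obtain ⟨y, rfl⟩ := Submodule.Quotient.mk_surjective _ x
    rw [← Submodule.Quotient.mk_smul, Submodule.Quotient.mk_eq_zero]
    exact Submodule.smul_mem_smul hr trivial
  obtain ⟨C, hC⟩ := exists_isCompl (LinearMap.ker φb)
  have hCK : IsCompl C (LinearMap.ker φb) := hC.symm
  let eb : Module.End R (F ⧸ JF) := C.projection (LinearMap.ker φb) hCK
  have heb : IsIdempotentElem eb := Submodule.isIdempotentElem_projection hCK
  have hker : ∀ g ∈ RingHom.ker (endQuot (R := R) F), IsNilpotent g := by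
    intro g hg
    rw [RingHom.mem_ker] at hg
    have h1 : ∀ x, g x ∈ JF := by
      intro x
      have := congrArg (fun t => t (Submodule.Quotient.mk x)) hg
      simp only [endQuot_mk, LinearMap.zero_apply] at this
      exact (Submodule.Quotient.mk_eq_zero _).mp this
    have hall : ∀ (k : ℕ) (x : F), (g ^ k) x ∈ Ring.jacobson R ^ k • (⊤ : Submodule R F) := by
      intro k
      induction k with
      | zero =>
        intro x
        rw [Submodule.pow_zero, Ideal.one_eq_top, Submodule.top_smul]
        trivial
      | succ k ih =>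
        intro x
        rw [pow_succ', Module.End.mul_apply, pow_succ_smul]
        refine Submodule.smul_induction_on (ih x) ?_ ?_
        · intro r hr m _
          rw [map_smul]
          exact Submodule.smul_mem_smul hr (h1 m)
        · intro a b ha hb
          rw [map_add]
          exact add_mem ha hb
    obtain ⟨n, hn⟩ := IsSemiprimaryRing.isNilpotent (R := R)
    refine ⟨n, ?_⟩
    refine LinearMap.ext fun x => ?_
    have h4 := hall n x
    rw [hn, Ideal.zero_eq_bot, Submodule.bot_smul, Submodule.mem_bot] at h4
    simpa using h4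
  have hrange : ∃ x, endQuot (R := R) F x = eb := by
    obtain ⟨x, hx⟩ := Module.projective_lifting_property JF.mkQ (eb ∘ₗ JF.mkQ)
      (Submodule.mkQ_surjective _)
    refine ⟨x, ?_⟩
    apply Submodule.linearMap_qext
    refine LinearMap.ext fun y => ?_
    have := congrArg (fun t => t y) hx
    simp only [LinearMap.comp_apply, Submodule.mkQ_apply] at this ⊢
    rw [endQuot_mk]
    exact this
  obtain ⟨e, he, hee⟩ := exists_isIdempotentElem_eq_of_ker_isNilpotent
    (endQuot (R := R) F) hker eb (RingHom.mem_range.mpr hrange) heb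
  have hmk : ∀ x, (Submodule.Quotient.mk (e x) : F ⧸ JF) =
      eb (Submodule.Quotient.mk x) := by
    intro x
    rw [← hee, endQuot_mk]
  have hidem : ∀ x, e (e x) = e x := fun x => by
    have := congrArg (fun t => t x) he.eq
    simpa using this
  let P : Submodule R F := LinearMap.range e
  have hsplit : e.rangeRestrict ∘ₗ P.subtype = LinearMap.id := by
    ext1 ⟨y, z, rfl⟩
    apply Subtype.ext
    simp [hidem]
  refine ⟨P, φ ∘ₗ P.subtype, Module.Projective.of_split P.subtype e.rangeRestrict hsplit,
    ?_, ?_⟩
  · rw [← LinearMap.range_eq_top]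
    apply eq_top_of_sup_smul
    rw [eq_top_iff]
    intro x _
    obtain ⟨f, rfl⟩ := hφ x
    have h1 : φ (f - e f) ∈ JX := by
      have h2 : (Submodule.Quotient.mk (f - e f) : F ⧸ JF) ∈ LinearMap.ker φb := by
        rw [Submodule.Quotient.mk_sub, hmk]
        have := Submodule.projection_eq_self_sub_projection hCK
          (Submodule.Quotient.mk f : F ⧸ JF)
        rw [← this]
        exact Submodule.projection_apply_mem _ _
      rw [LinearMap.mem_ker] at h2
      exact (Submodule.Quotient.mk_eq_zero _).mp h2
    have h3' : φ f = φ (e f) + φ (f - e f) := by rw [← map_add]; congr 1; abel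
    rw [h3']
    refine Submodule.add_mem_sup ?_ h1
    exact ⟨⟨e f, f, rfl⟩, rfl⟩
  · intro y hy
    rw [LinearMap.mem_ker] at hy
    obtain ⟨y, z, rfl⟩ := y
    have hy' : φ (e z) = 0 := hy
    have h1 : (Submodule.Quotient.mk (e z) : F ⧸ JF) ∈ LinearMap.ker φb := by
      rw [LinearMap.mem_ker]
      change (Submodule.Quotient.mk (φ (e z)) : X ⧸ JX) = 0
      rw [hy', Submodule.Quotient.mk_zero]
    have h2 : (Submodule.Quotient.mk (e z) : F ⧸ JF) ∈ C := by
      rw [hmk]
      exact Submodule.projection_apply_mem _ _
    have h4 : (Submodule.Quotient.mk (e z) : F ⧸ JF) = 0 := by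
      have := hCK.disjoint.le_bot ⟨h2, h1⟩
      simpa using this
    have h5 : e z ∈ JF := (Submodule.Quotient.mk_eq_zero _).mp h4
    have h6 : e.rangeRestrict (e z) ∈ Ring.jacobson R • (⊤ : Submodule R P) := by
      have : e.rangeRestrict (e z) ∈ Submodule.map e.rangeRestrict JF :=
        Submodule.mem_map_of_mem h5
      rw [hJF, Submodule.map_smul''] at this
      exact Submodule.smul_mono le_rfl le_top this
    have h7 : e.rangeRestrict (e z) = (⟨e z, z, rfl⟩ : P) := by
      apply Subtype.ext
      simp [hidem]
    rw [h7] at h6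
    exact h6

theorem exists_cover [IsSemiprimaryRing R]
    (X : Type u) [AddCommGroup X] [Module R X] :
    ∃ (P : Type u) (_ : AddCommGroup P) (_ : Module R P) (π : P →ₗ[R] X),
      Module.Projective R P ∧
      Function.Surjective π ∧ LinearMap.ker π ≤ Ring.jacobson R • (⊤ : Submodule R P) := by
  obtain ⟨P, π, h1, h2, h3⟩ := exists_cover_aux (X →₀ R) X (Finsupp.linearCombination R id)
    (Finsupp.linearCombination_id_surjective R X)
  exact ⟨P, inferInstance, inferInstance, π, h1, h2, h3⟩

end Vale.Agent.P176
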