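import Mathlib

namespace Vale.Agent.P176

universe u

open CategoryTheory

variable {B : Type u} [Ring B]

inductive IsSyz : ℕ → ModuleCat.{u} B → ModuleCat.{u} B → Prop
  | zero (X : ModuleCat.{u} B) : IsSyz 0 X X
  | succ {n : ℕ} {L : ModuleCat.{u} B} (S : ShortComplex (ModuleCat.{u} B)) (hS : S.ShortExact)
      (hP : Projective S.X₂) (h : IsSyz n S.X₁ L) : IsSyz (n + 1) S.X₃ L

def DeloopsAt (S : ModuleCat.{u} B) (j : ℕ) : Prop :=
  ∃ K N L : ModuleCat.{u} B, IsSyz j S K ∧ IsSyz (j + 1) N L ∧ Nonempty (Retract K L)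

end Vale.Agent.P176
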