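import Mathlib
import Vale.Agent.P176.Defs

namespace Vale.Agent.P176

universe u

open CategoryTheory

variable {B : Type u} [Ring B]

def KDeloopsAt (k : ℕ) (X : ModuleCat.{u} B) (j : ℕ) : Prop :=
  ∃ K N L : ModuleCat.{u} B, IsSyz j X K ∧ IsSyz (j + k) N L ∧ Nonempty (Retract K L)

inductive DRes (m : ℕ) : ℕ → ModuleCat.{u} B → Prop
  | last {i : ℕ} {X : ModuleCat.{u} B} (j : ℕ) (hj : j + i ≤ m) (h : KDeloopsAt (i + 1) X j) :
      DRes m i X
  | step {i : ℕ} (S : ShortComplex (ModuleCat.{u} B)) (hS : S.ShortExact) (j : ℕ)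
      (hj : j + i ≤ m) (h : KDeloopsAt (i + 1) S.X₂ j) (h' : DRes m (i + 1) S.X₁) :
      DRes m i S.X₃

end Vale.Agent.P176
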