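import Mathlib
import Vale.Agent.P176.Defs

namespace Vale.Agent.P176

universe u

open CategoryTheory Abelian

variable {B : Type u} [Ring B]

theorem shift_down {S : ShortComplex (ModuleCat.{u} B)} (hS : S.ShortExact) (hP : Projective S.X₂)
    (Y : ModuleCat.{u} B) (n : ℕ) (h : Subsingleton (Ext S.X₃ Y (n + 2))) :
    Subsingleton (Ext S.X₁ Y (n + 1)) := by
  have key : ∀ x : Ext S.X₁ Y (n + 1), x = 0 := by
    intro x
    obtain ⟨x₂, hx₂⟩ := Ext.contravariant_sequence_exact₁ hS Y x (n₁ := n + 2) (by omega)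
      (Subsingleton.elim _ _)
    rw [← hx₂, Ext.eq_zero_of_projective x₂, Ext.comp_zero]
  exact ⟨fun a b => by rw [key a, key b]⟩

theorem shift_up {S : ShortComplex (ModuleCat.{u} B)} (hS : S.ShortExact) (hP : Projective S.X₂)
    (Y : ModuleCat.{u} B) (n : ℕ) (h : Subsingleton (Ext S.X₁ Y (n + 1))) :
    Subsingleton (Ext S.X₃ Y (n + 2)) := by
  have key : ∀ x : Ext S.X₃ Y (n + 2), x = 0 := by
    intro x
    obtain ⟨x₁, hx₁⟩ := Ext.contravariant_sequence_exact₃ hS Y x
      (Ext.eq_zero_of_projective _) (n₀ := n + 1) (by omega)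
    rw [← hx₁, Subsingleton.elim x₁ 0, Ext.comp_zero]
  exact ⟨fun a b => by rw [key a, key b]⟩

theorem syz_down {n : ℕ} {X K : ModuleCat.{u} B} (h : IsSyz n X K) (Y : ModuleCat.{u} B) :
    ∀ i : ℕ, Subsingleton (Ext X Y (n + i + 1)) → Subsingleton (Ext K Y (i + 1)) := by
  induction h with
  | zero X =>
    intro i hi
    simpa using hi
  | @succ n L S hS hP _ ih =>
    intro i hi
    apply ih i
    apply shift_down hS hP Y (n + i)
    have : n + 1 + i + 1 = n + i + 2 := by omega
    rwa [this] at hi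

theorem syz_up {n : ℕ} {X K : ModuleCat.{u} B} (h : IsSyz n X K) (Y : ModuleCat.{u} B) :
    ∀ i : ℕ, Subsingleton (Ext K Y (i + 1)) → Subsingleton (Ext X Y (n + i + 1)) := by
  induction h with
  | zero X =>
    intro i hi
    simpa using hi
  | @succ n L S hS hP _ ih =>
    intro i hi
    have h1 := shift_up hS hP Y (n + i) (ih i hi)
    have : n + 1 + i + 1 = n + i + 2 := by omega
    rwa [this]

theorem ext_retract_left {K L : ModuleCat.{u} B} (r : Retract K L) (Y : ModuleCat.{u} B) (m : ℕ)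
    (h : Subsingleton (Ext L Y m)) : Subsingleton (Ext K Y m) := by
  have key : ∀ x : Ext K Y m, x = 0 := by
    intro x
    have h1 : x = (Ext.mk₀ r.i).comp ((Ext.mk₀ r.r).comp x (zero_add m)) (zero_add m) := by
      rw [← Ext.comp_assoc_of_second_deg_zero, Ext.mk₀_comp_mk₀, r.retract, Ext.mk₀_id_comp]
    rw [h1, Subsingleton.elim ((Ext.mk₀ r.r).comp x (zero_add m)) 0, Ext.comp_zero]
  exact ⟨fun a b => by rw [key a, key b]⟩

theorem ext_of_deloops {S J : ModuleCat.{u} B} {j d : ℕ} (h : DeloopsAt S j) (hjd : j < d)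
    (hJ : HasInjectiveDimensionLT J (d + 1)) : Subsingleton (Ext S J d) := by
  obtain ⟨K, N, L, hK, hL, ⟨r⟩⟩ := h
  obtain ⟨i, rfl⟩ : ∃ i, d = j + i + 1 := ⟨d - j - 1, by omega⟩
  apply syz_up hK J i
  apply ext_retract_left r
  apply syz_down hL J i
  exact HasInjectiveDimensionLT.subsingleton J (j + i + 1 + 1) _ (by omega) N

theorem ext_finiteLength (J : ModuleCat.{u} B) (d : ℕ)
    (hs : ∀ S : ModuleCat.{u} B, IsSimpleModule B S → Subsingleton (Ext S J d))
    (Y : Type u) [AddCommGroup Y] [Module B Y] (hY : IsFiniteLength B Y) :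
    Subsingleton (Ext (ModuleCat.of B Y) J d) := by
  induction hY with
  | of_subsingleton =>
    rename_i M _ _ _
    have hz : Limits.IsZero (ModuleCat.of B M) := ModuleCat.isZero_of_subsingleton _
    have key : ∀ x : Ext (ModuleCat.of B M) J d, x = 0 := by
      intro x
      rw [← Ext.mk₀_id_comp x, hz.eq_of_src (𝟙 _) 0, Ext.mk₀_zero, Ext.zero_comp]
    exact ⟨fun a b => by rw [key a, key b]⟩
  | of_simple_quotient _ ih =>
    rename_i M _ _ N hsimple _
    let S : ShortComplex (ModuleCat.{u} B) :=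
      ModuleCat.shortComplexOfCompEqZero N.subtype N.mkQ (by ext x; simp)
    have hS : S.ShortExact := ModuleCat.shortComplex_shortExact S
      (LinearMap.exact_subtype_mkQ N) Subtype.val_injective (Submodule.mkQ_surjective N)
    have h3 : Subsingleton (Ext S.X₃ J d) := hs _ hsimple
    have h1 : Subsingleton (Ext S.X₁ J d) := ih
    have key : ∀ x : Ext S.X₂ J d, x = 0 := by
      intro x
      obtain ⟨x₃, hx₃⟩ := Ext.contravariant_sequence_exact₂ hS J x (Subsingleton.elim _ _)
      rw [← hx₃, Subsingleton.elim x₃ 0, Ext.comp_zero]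
    exact ⟨fun a b => by rw [key a, key b]⟩

theorem extend_of_ext {S : ShortComplex (ModuleCat.{u} B)} (hS : S.ShortExact)
    (Y : ModuleCat.{u} B) (h : Subsingleton (Ext S.X₃ Y 1)) (f : S.X₁ ⟶ Y) :
    ∃ g : S.X₂ ⟶ Y, S.f ≫ g = f := by
  obtain ⟨x₂, hx₂⟩ := Ext.contravariant_sequence_exact₁ hS Y (Ext.mk₀ f) (n₁ := 1) (by omega)
    (Subsingleton.elim _ _)
  obtain ⟨g, rfl⟩ := (Ext.mk₀_bijective S.X₂ Y).2 x₂
  refine ⟨g, ?_⟩
  rw [Ext.mk₀_comp_mk₀] at hx₂
  exact (Ext.mk₀_bijective S.X₁ Y).1 hx₂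

theorem injective_of_simple [IsArtinianRing B] (J : ModuleCat.{u} B)
    (hs : ∀ S : ModuleCat.{u} B, IsSimpleModule B S → Subsingleton (Ext S J 1)) :
    Injective J := by
  have hB : Module.Baer B J := by
    intro I g
    let S : ShortComplex (ModuleCat.{u} B) :=
      ModuleCat.shortComplexOfCompEqZero I.subtype I.mkQ (by ext x; simp)
    have hS : S.ShortExact := ModuleCat.shortComplex_shortExact S
      (LinearMap.exact_subtype_mkQ I) Subtype.val_injective (Submodule.mkQ_surjective I)
    have hfl : IsFiniteLength B (B ⧸ I) :=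
      isFiniteLength_iff_isNoetherian_isArtinian.mpr ⟨inferInstance, inferInstance⟩
    have h3 : Subsingleton (Ext S.X₃ J 1) := ext_finiteLength J 1 hs (B ⧸ I) hfl
    obtain ⟨g', hg'⟩ := extend_of_ext hS J h3 (ModuleCat.ofHom g)
    refine ⟨g'.hom, fun x hx => ?_⟩
    have := congrArg (fun t => t.hom ⟨x, hx⟩) hg'
    simpa [S] using this
  have := hB.injective
  exact Module.injective_object_of_injective_module (R := B) (M := J)

theorem injDim_of_simple [IsArtinianRing B] : ∀ (d : ℕ) (J : ModuleCat.{u} B),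
    (∀ S : ModuleCat.{u} B, IsSimpleModule B S → Subsingleton (Ext S J (d + 1))) →
    HasInjectiveDimensionLT J (d + 1) := by
  intro d
  induction d with
  | zero =>
    intro J hs
    have := injective_of_simple J hs
    infer_instance
  | succ d ih =>
    intro J hs
    let S : ShortComplex (ModuleCat.{u} B) :=
      ShortComplex.mk (Injective.ι J) (Limits.cokernel.π (Injective.ι J))
        (Limits.cokernel.condition _)
    have hS : S.ShortExact := { exact := ShortComplex.exact_cokernel _ }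
    have hI : Injective S.X₂ := inferInstanceAs (Injective (Injective.under J))
    have h3 : HasInjectiveDimensionLT S.X₃ (d + 1) := by
      apply ih
      intro T hT
      have hT' := hs T hT
      have key : ∀ x : Ext T S.X₃ (d + 1), x = 0 := by
        intro x
        obtain ⟨x₂, hx₂⟩ := Ext.covariant_sequence_exact₃ T hS x (n₁ := d + 1 + 1) rfl
          (Subsingleton.elim _ _)
        rw [← hx₂, Ext.eq_zero_of_injective x₂, Ext.zero_comp]
      exact ⟨fun a b => by rw [key a, key b]⟩
    exact hS.hasInjectiveDimensionLT_X₁ (d + 1) h3 inferInstance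

theorem injDim_le_of_deloops [IsArtinianRing B] (n : ℕ)
    (h : ∀ S : ModuleCat.{u} B, IsSimpleModule B S → ∃ j, j ≤ n ∧ DeloopsAt S j)
    (J : ModuleCat.{u} B) :
    ∀ D : ℕ, HasInjectiveDimensionLT J D → HasInjectiveDimensionLT J (n + 1) := by
  intro D
  induction D with
  | zero =>
    intro hJ
    exact hasInjectiveDimensionLT_of_ge J 0 (n + 1) (by omega)
  | succ D ih =>
    intro hJ
    by_cases hD : D ≤ n
    · exact hasInjectiveDimensionLT_of_ge J (D + 1) (n + 1) (by omega)
    · apply ih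
      obtain ⟨d, rfl⟩ : ∃ d, D = d + 1 := ⟨D - 1, by omega⟩
      apply injDim_of_simple
      intro S hS
      obtain ⟨j, hj, hd⟩ := h S hS
      exact ext_of_deloops hd (by omega) hJ

end Vale.Agent.P176
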