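import Mathlib

namespace Vale.Agent.P176

universe u

open MulOpposite

def CD (M : Type u) [AddCommGroup M] : Type u := M →+ AddCircle (1 : ℚ)

namespace CD

variable {A : Type u} [Ring A]

section basic

variable {M : Type u} [AddCommGroup M]

instance : AddCommGroup (CD M) := inferInstanceAs (AddCommGroup (M →+ AddCircle (1 : ℚ)))

def ev (φ : CD M) (x : M) : AddCircle (1 : ℚ) := (show M →+ AddCircle (1 : ℚ) from φ) x

theorem ext {φ ψ : CD M} (h : ∀ x, φ.ev x = ψ.ev x) : φ = ψ :=
  AddMonoidHom.ext h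

@[simp] theorem ev_add (φ : CD M) (x y : M) : φ.ev (x + y) = φ.ev x + φ.ev y :=
  AddMonoidHom.map_add _ x y

@[simp] theorem ev_zero (φ : CD M) : φ.ev 0 = 0 := AddMonoidHom.map_zero _

@[simp] theorem add_ev (φ ψ : CD M) (x : M) : (φ + ψ).ev x = φ.ev x + ψ.ev x := rfl

@[simp] theorem zero_ev (x : M) : (0 : CD M).ev x = 0 := rfl

def mk (f : M →+ AddCircle (1 : ℚ)) : CD M := f

@[simp] theorem mk_ev (f : M →+ AddCircle (1 : ℚ)) (x : M) : (mk f).ev x = f x := rfl

variable [Module A M]

instance : Module Aᵐᵒᵖ (CD M) where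
  smul a φ := mk ((show M →+ AddCircle (1 : ℚ) from φ).comp
    (DistribSMul.toAddMonoidHom M a.unop))
  one_smul φ := by
    apply ext
    intro x
    change φ.ev ((1 : A) • x) = φ.ev x
    rw [one_smul]
  mul_smul a b φ := by
    apply ext
    intro x
    change φ.ev ((b.unop * a.unop) • x) = φ.ev (b.unop • (a.unop • x))
    rw [mul_smul]
  smul_zero a := rfl
  smul_add a φ ψ := rfl
  add_smul a b φ := by
    apply ext
    intro x
    change φ.ev ((a.unop + b.unop) • x) = φ.ev (a.unop • x) + φ.ev (b.unop • x)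
    rw [add_smul, ev_add]
  zero_smul φ := by
    apply ext
    intro x
    change φ.ev ((0 : A) • x) = 0
    rw [zero_smul, ev_zero]

@[simp] theorem smul_ev (a : Aᵐᵒᵖ) (φ : CD M) (x : M) : (a • φ).ev x = φ.ev (a.unop • x) := rfl

end basic

section maps

variable {M N : Type u} [AddCommGroup M] [AddCommGroup N] [Module A M] [Module A N]

def map (f : M →ₗ[A] N) : CD N →ₗ[Aᵐᵒᵖ] CD M where
  toFun φ := mk ((show N →+ AddCircle (1 : ℚ) from φ).comp f.toAddMonoidHom)
  map_add' φ ψ := rfl
  map_smul' a φ := by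
    apply ext
    intro x
    change φ.ev (a.unop • f x) = φ.ev (f (a.unop • x))
    rw [map_smul]

@[simp] theorem map_ev (f : M →ₗ[A] N) (φ : CD N) (x : M) : (map f φ).ev x = φ.ev (f x) := rfl

theorem map_injective (f : M →ₗ[A] N) (hf : Function.Surjective f) :
    Function.Injective (map f) := by
  intro φ ψ h
  apply ext
  intro y
  obtain ⟨x, rfl⟩ := hf y
  have := congrArg (fun t => t.ev x) h
  simpa using this

theorem map_surjective (f : M →ₗ[A] N) (hf : Function.Injective f) :
    Function.Surjective (map f) := by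
  intro φ
  obtain ⟨ψ, hψ⟩ := (Module.Baer.of_divisible (AddCircle (1 : ℚ))).extension_property_addMonoidHom
    f.toAddMonoidHom hf (show M →+ AddCircle (1 : ℚ) from φ)
  refine ⟨mk ψ, ?_⟩
  apply ext
  intro x
  exact congrArg (fun t => t x) hψ

theorem exists_ne {x : M} (hx : x ≠ 0) : ∃ φ : CD M, φ.ev x ≠ 0 := by
  obtain ⟨c, hc⟩ := CharacterModule.exists_character_apply_ne_zero_of_ne_zero hx
  exact ⟨c, hc⟩

end maps

section exact

variable {K P M : Type u} [AddCommGroup K] [AddCommGroup P] [AddCommGroup M]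
  [Module A K] [Module A P] [Module A M]

theorem map_exact (i : K →ₗ[A] P) (p : P →ₗ[A] M) (hp : Function.Surjective p)
    (hex : Function.Exact i p) : Function.Exact (map p) (map i) := by
  intro φ
  constructor
  · intro h
    have hker : ∀ x, p x = 0 → φ.ev x = 0 := by
      intro x hx
      obtain ⟨k, rfl⟩ := (hex x).1 hx
      have := congrArg (fun t => t.ev k) h
      simpa using this
    let g : M → P := Function.surjInv hp
    have hg : ∀ y, p (g y) = y := Function.surjInv_eq hp
    have hsub : ∀ x y, p x = p y → φ.ev x = φ.ev y := by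
      intro x y hxy
      have h1 : φ.ev (x - y) = 0 := hker _ (by rw [map_sub, hxy, sub_self])
      have h2 : φ.ev x = φ.ev (x - y) + φ.ev y := by rw [← ev_add, sub_add_cancel]
      rw [h2, h1, zero_add]
    refine ⟨mk (AddMonoidHom.mk' (fun y => φ.ev (g y)) ?_), ?_⟩
    · intro a b
      rw [← ev_add]
      apply hsub
      rw [map_add, hg, hg, hg]
    · apply ext
      intro x
      change φ.ev (g (p x)) = φ.ev x
      apply hsub
      rw [hg]
  · rintro ⟨ψ, rfl⟩
    apply ext
    intro k
    change ψ.ev (p (i k)) = 0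
    rw [hex.apply_apply_eq_zero, ev_zero]

end exact

end CD

end Vale.Agent.P176
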