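import Mathlib
import Vale.Agent.P176.Dual

namespace Vale.Agent.P176

universe u

open MulOpposite

variable {A : Type u} [Ring A]

theorem CD.injective_of_projective (P : Type u) [AddCommGroup P] [Module A P]
    [Module.Projective A P] : Module.Injective Aᵐᵒᵖ (CD P) := by
  obtain ⟨s, hs⟩ := (Module.projective_def (R := A) (P := P)).1 inferInstance
  refine ⟨fun X Y _ _ _ _ f hf g => ?_⟩
  have hext : ∀ p : P, ∃ G : Y →+ AddCircle (1 : ℚ), ∀ x, G (f x) = (g x).ev p := by
    intro p
    let gp : X →+ AddCircle (1 : ℚ) := AddMonoidHom.mk' (fun x => (g x).ev p) (by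
      intro a b
      rw [map_add, CD.add_ev])
    obtain ⟨G, hG⟩ := (Module.Baer.of_divisible
      (AddCircle (1 : ℚ))).extension_property_addMonoidHom f.toAddMonoidHom hf gp
    exact ⟨G, fun x => congrArg (fun t => t x) hG⟩
  choose G hG using hext
  let h0 : Y → P → AddCircle (1 : ℚ) := fun y q => (s q).sum (fun p a => G p (op a • y))
  have h0_addq : ∀ y q q', h0 y (q + q') = h0 y q + h0 y q' := by
    intro y q q'
    simp only [h0]
    rw [map_add, Finsupp.sum_add_index']
    · intro p
      rw [op_zero, zero_smul, map_zero]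
    · intro p a b
      rw [op_add, add_smul, map_add]
  have h0_addy : ∀ y y' q, h0 (y + y') q = h0 y q + h0 y' q := by
    intro y y' q
    simp only [h0]
    rw [← Finsupp.sum_add]
    apply Finsupp.sum_congr
    intro p _
    rw [smul_add, map_add]
  have h0_smul : ∀ (b : Aᵐᵒᵖ) y q, h0 (b • y) q = h0 y (b.unop • q) := by
    intro b y q
    simp only [h0]
    rw [map_smul, Finsupp.sum_smul_index]
    · apply Finsupp.sum_congr
      intro p _
      rw [← mul_smul]
      congr 2
    · intro p
      rw [op_zero, zero_smul, map_zero]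
  let h : Y →ₗ[Aᵐᵒᵖ] CD P :=
    { toFun := fun y => CD.mk (AddMonoidHom.mk' (h0 y) (h0_addq y))
      map_add' := by
        intro y y'
        apply CD.ext
        intro q
        exact h0_addy y y' q
      map_smul' := by
        intro b y
        apply CD.ext
        intro q
        exact h0_smul b y q }
  refine ⟨h, fun x => ?_⟩
  apply CD.ext
  intro q
  change h0 (f x) q = (g x).ev q
  simp only [h0]
  have h1 : ∀ (p : P) (a : A), G p (op a • f x) = (g x).ev (a • p) := by
    intro p a
    rw [← map_smul, hG, map_smul, CD.smul_ev, unop_op]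
  simp only [h1]
  have h2 : q = (s q).sum (fun p a => a • p) := by
    have := hs q
    rw [Finsupp.linearCombination_apply] at this
    exact this.symm
  conv_rhs => rw [h2]
  let e : P →+ AddCircle (1 : ℚ) := g x
  change _ = e _
  rw [Finsupp.sum, Finsupp.sum, map_sum]
  rfl

end Vale.Agent.P176
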