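import Mathlib
import Vale.Agent.P176.Dual
import Vale.Agent.P176.DualInj
import Vale.Agent.P176.Cover
import Vale.Agent.P176.InjDim

namespace Vale.Agent.P176

universe u

open CategoryTheory Abelian MulOpposite

variable {A : Type u} [Ring A]

def DObj (M : ModuleCat.{u} A) : ModuleCat.{u} Aᵐᵒᵖ := ModuleCat.of Aᵐᵒᵖ (CD M)

def DSC (S : ShortComplex (ModuleCat.{u} A)) : ShortComplex (ModuleCat.{u} Aᵐᵒᵖ) :=
  ModuleCat.shortComplexOfCompEqZero (CD.map S.g.hom) (CD.map S.f.hom) (by
    refine LinearMap.ext fun φ => ?_
    apply CD.ext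
    intro x
    change φ.ev (S.g.hom (S.f.hom x)) = 0
    have : S.g.hom (S.f.hom x) = 0 := S.moduleCat_zero_apply x
    rw [this, CD.ev_zero])

theorem DSC_shortExact {S : ShortComplex (ModuleCat.{u} A)} (hS : S.ShortExact) :
    (DSC S).ShortExact :=
  ModuleCat.shortComplex_shortExact _
    (CD.map_exact _ _ hS.moduleCat_surjective_g
      ((ShortComplex.ShortExact.moduleCat_exact_iff_function_exact S).1 hS.exact))
    (CD.map_injective _ hS.moduleCat_surjective_g)
    (CD.map_surjective _ hS.moduleCat_injective_f)

theorem DObj_injective (P : ModuleCat.{u} A) (hP : Projective P) : Injective (DObj P) := by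
  have h1 : Module.Projective A P := (IsProjective.iff_projective (R := A) P).2 hP
  have h2 : Module.Injective Aᵐᵒᵖ (CD P) := CD.injective_of_projective P
  exact Module.injective_object_of_injective_module (R := Aᵐᵒᵖ) (M := CD P)

noncomputable def pres (M : ModuleCat.{u} A) : ShortComplex (ModuleCat.{u} A) :=
  ShortComplex.mk (Limits.kernel.ι (Projective.π M)) (Projective.π M)
    (Limits.kernel.condition _)

theorem pres_shortExact (M : ModuleCat.{u} A) : (pres M).ShortExact :=
  { exact := ShortComplex.exact_kernel _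
    mono_f := inferInstanceAs (Mono (Limits.kernel.ι (Projective.π M)))
    epi_g := inferInstanceAs (Epi (Projective.π M)) }

theorem pres_projective (M : ModuleCat.{u} A) : Projective (pres M).X₂ :=
  inferInstanceAs (Projective (Projective.over M))

theorem injDim_dual : ∀ (d : ℕ) (M : ModuleCat.{u} A), HasProjectiveDimensionLT M (d + 1) →
    HasInjectiveDimensionLT (DObj M) (d + 1) := by
  intro d
  induction d with
  | zero =>
    intro M hM
    have hP : Projective M := projective_iff_hasProjectiveDimensionLT_one.2 hM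
    have := DObj_injective M hP
    infer_instance
  | succ d ih =>
    intro M hM
    have hS := pres_shortExact M
    have hP := pres_projective M
    have h1 : HasProjectiveDimensionLT (pres M).X₁ (d + 1) :=
      (hS.hasProjectiveDimensionLT_X₃_iff d hP).1 hM
    have h2 := ih _ h1
    have hI : Injective (DSC (pres M)).X₂ := DObj_injective _ hP
    exact (DSC_shortExact hS).hasInjectiveDimensionLT_X₁ (d + 1) h2 inferInstance

theorem proj_of_dual_injective [IsSemiprimaryRing A] (M : ModuleCat.{u} A)
    (h : Injective (DObj M)) : Projective M := by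
  obtain ⟨P, _, _, π, hP, hsurj, hker⟩ := exists_cover (R := A) M
  let S : ShortComplex (ModuleCat.{u} A) := π.shortComplexKer
  have hS : S.ShortExact := LinearMap.shortExact_shortComplexKer hsurj
  have hDS := DSC_shortExact hS
  have hI : Injective (DSC S).X₁ := h
  let sp := hDS.splittingOfInjective
  let σ : CD (LinearMap.ker π) →ₗ[Aᵐᵒᵖ] CD P := sp.s.hom
  have hσ : ∀ χ : CD (LinearMap.ker π), CD.map (LinearMap.ker π).subtype (σ χ) = χ := by
    intro χ
    have := congrArg (fun t => t.hom χ) sp.s_g
    exact this
  have htop : (⊤ : Submodule A (LinearMap.ker π)) ≤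
      Ring.jacobson A • (⊤ : Submodule A (LinearMap.ker π)) := by
    intro x _
    by_contra hx
    set K' : Submodule A (LinearMap.ker π) := Ring.jacobson A • ⊤ with hK'
    have hne : (Submodule.Quotient.mk x : (LinearMap.ker π) ⧸ K') ≠ 0 := by
      rwa [Ne, Submodule.Quotient.mk_eq_zero]
    obtain ⟨χ0, hχ0⟩ := CD.exists_ne hne
    let χ : CD (LinearMap.ker π) := CD.map K'.mkQ χ0
    have hJ : ∀ a ∈ Ring.jacobson A, (op a) • χ = 0 := by
      intro a ha
      apply CD.ext
      intro y
      change χ0.ev (Submodule.Quotient.mk (a • y)) = 0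
      have : (Submodule.Quotient.mk (a • y) : (LinearMap.ker π) ⧸ K') = 0 := by
        rw [Submodule.Quotient.mk_eq_zero]
        exact Submodule.smul_mem_smul ha trivial
      rw [this, CD.ev_zero]
    have hvan : ∀ p ∈ Ring.jacobson A • (⊤ : Submodule A P), (σ χ).ev p = 0 := by
      intro p hp
      refine Submodule.smul_induction_on hp ?_ ?_
      · intro a ha q _
        have h1 : (σ χ).ev (a • q) = ((op a) • σ χ).ev q := rfl
        rw [h1, ← map_smul, hJ a ha, map_zero, CD.zero_ev]
      · intro p q hp hq
        rw [CD.ev_add, hp, hq, add_zero]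
    apply hχ0
    have h2 : χ.ev x = (σ χ).ev x.1 := by
      conv_lhs => rw [← hσ χ]
      rfl
    have h3 : χ.ev x = χ0.ev (Submodule.Quotient.mk x) := rfl
    rw [← h3, h2]
    exact hvan _ (hker x.2)
  have hbot := eq_bot_of_le_smul _ htop
  have hinj : Function.Injective π := by
    rw [← LinearMap.ker_eq_bot, eq_bot_iff]
    intro x hx
    have h1 : (⟨x, hx⟩ : LinearMap.ker π) ∈ (⊤ : Submodule A (LinearMap.ker π)) := trivial
    rw [hbot, Submodule.mem_bot] at h1
    exact congrArg Subtype.val h1
  have hM : Module.Projective A M :=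
    Module.Projective.of_equiv (LinearEquiv.ofBijective π ⟨hinj, hsurj⟩)
  exact (IsProjective.iff_projective (R := A) M).1 hM

theorem projDim_of_dual [IsSemiprimaryRing A] : ∀ (n : ℕ) (M : ModuleCat.{u} A),
    HasInjectiveDimensionLT (DObj M) (n + 1) → HasProjectiveDimensionLT M (n + 1) := by
  intro n
  induction n with
  | zero =>
    intro M hM
    have hI : Injective (DObj M) := injective_iff_hasInjectiveDimensionLT_one.2 hM
    have := proj_of_dual_injective M hI
    infer_instance
  | succ n ih =>
    intro M hM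
    have hS := pres_shortExact M
    have hP := pres_projective M
    have hI : Injective (DSC (pres M)).X₂ := DObj_injective _ hP
    have h3 : HasInjectiveDimensionLT (DSC (pres M)).X₃ (n + 1) :=
      ((DSC_shortExact hS).hasInjectiveDimensionLT_X₃_iff n hI).2 hM
    have h1 := ih _ h3
    exact (hS.hasProjectiveDimensionLT_X₃_iff n hP).2 h1

theorem findim_le [IsSemiprimaryRing A] [IsArtinianRing Aᵐᵒᵖ] (n : ℕ)
    (h : ∀ S : ModuleCat.{u} Aᵐᵒᵖ, IsSimpleModule Aᵐᵒᵖ S → ∃ j, j ≤ n ∧ DeloopsAt S j)
    (M : ModuleCat.{u} A) (d : ℕ) (hM : HasProjectiveDimensionLT M d) :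
    HasProjectiveDimensionLT M (n + 1) := by
  have h1 : HasProjectiveDimensionLT M (d + 1) :=
    hasProjectiveDimensionLT_of_ge M d (d + 1) (by omega)
  have h2 := injDim_dual d M h1
  have h3 := injDim_le_of_deloops n h _ _ h2
  exact projDim_of_dual n M h3

end Vale.Agent.P176
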