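import Mathlib
import Vale.Agent.P176.Defs
import Vale.Agent.P176.DefsDerived
import Vale.Agent.P176.InjDim
import Vale.Agent.P176.Main

namespace Vale.Agent.P176

universe u

open CategoryTheory Abelian

variable {B : Type u} [Ring B]

theorem ext_of_kdeloops {X J : ModuleCat.{u} B} {i j q : ℕ} (h : KDeloopsAt (i + 1) X j)
    (hjq : j < q) (hJ : HasInjectiveDimensionLT J (q + i + 1)) : Subsingleton (Ext X J q) := by
  obtain ⟨K, N, L, hK, hL, ⟨r⟩⟩ := h
  obtain ⟨e, rfl⟩ : ∃ e, q = j + e + 1 := ⟨q - j - 1, by omega⟩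
  apply syz_up hK J e
  apply ext_retract_left r
  apply syz_down hL J e
  exact HasInjectiveDimensionLT.subsingleton J (j + e + 1 + i + 1) _ (by omega) N

theorem ext_of_dres {m i : ℕ} {X : ModuleCat.{u} B} (h : DRes m i X) (J : ModuleCat.{u} B) :
    ∀ q : ℕ, m < q + i → HasInjectiveDimensionLT J (q + i + 1) → Subsingleton (Ext X J q) := by
  induction h with
  | @last i X j hj h =>
    intro q hq hJ
    exact ext_of_kdeloops h (by omega) hJ
  | @step i S hS j hj h _ ih =>
    intro q hq hJ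
    have h2 : Subsingleton (Ext S.X₂ J q) := ext_of_kdeloops h (by omega) hJ
    obtain ⟨q', rfl⟩ : ∃ q', q = q' + 1 := ⟨q - 1, by omega⟩
    have h1 : Subsingleton (Ext S.X₁ J q') := by
      apply ih q' (by omega)
      have : q' + (i + 1) + 1 = q' + 1 + i + 1 := by omega
      rw [this]
      exact hJ
    have key : ∀ x : Ext S.X₃ J (q' + 1), x = 0 := by
      intro x
      obtain ⟨x₁, hx₁⟩ := Ext.contravariant_sequence_exact₃ hS J x
        (Subsingleton.elim _ _) (n₀ := q') (by omega)
      rw [← hx₁, Subsingleton.elim x₁ 0, Ext.comp_zero]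
    exact ⟨fun a b => by rw [key a, key b]⟩

theorem injDim_le_of_ext [IsArtinianRing B] (n : ℕ) (J : ModuleCat.{u} B)
    (h : ∀ S : ModuleCat.{u} B, IsSimpleModule B S → ∀ d, n < d →
      HasInjectiveDimensionLT J (d + 1) → Subsingleton (Ext S J d)) :
    ∀ D : ℕ, HasInjectiveDimensionLT J D → HasInjectiveDimensionLT J (n + 1) := by
  intro D
  induction D with
  | zero =>
    intro hJ
    exact hasInjectiveDimensionLT_of_ge J 0 (n + 1) (by omega)
  | succ D ih =>
    intro hJ
    by_cases hD : D ≤ n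
    · exact hasInjectiveDimensionLT_of_ge J (D + 1) (n + 1) (by omega)
    · apply ih
      obtain ⟨d, rfl⟩ : ∃ d, D = d + 1 := ⟨D - 1, by omega⟩
      apply injDim_of_simple
      intro S hS
      exact h S hS (d + 1) (by omega) hJ

theorem findim_le_derived {A : Type u} [Ring A] [IsSemiprimaryRing A] [IsArtinianRing Aᵐᵒᵖ]
    (n : ℕ) (h : ∀ S : ModuleCat.{u} Aᵐᵒᵖ, IsSimpleModule Aᵐᵒᵖ S → DRes n 0 S)
    (M : ModuleCat.{u} A) (d : ℕ) (hM : HasProjectiveDimensionLT M d) :
    HasProjectiveDimensionLT M (n + 1) := by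
  have h1 : HasProjectiveDimensionLT M (d + 1) :=
    hasProjectiveDimensionLT_of_ge M d (d + 1) (by omega)
  have h2 := injDim_dual d M h1
  have h3 := injDim_le_of_ext n (DObj M) (fun S hS e he hJ =>
    ext_of_dres (h S hS) (DObj M) e (by omega) hJ) _ h2
  exact projDim_of_dual n M h3

end Vale.Agent.P176
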